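import Vale.Agent.P242.Lim

namespace Vale.Agent.P242

open Metric Set Filter Topology

theorem modelled_of_chart {n : ℕ} {X : Type*} [MetricSpace X] {p : X} (h : Chart n p) :
    Modelled ({p} : Set X) p := by
  classical
  obtain ⟨U, V, F, L, hL, hU, hp, hV, hbij, hb⟩ := h
  have hL0 : 0 < L := by linarith
  obtain ⟨ρ0, hρ0, hU0⟩ := Metric.isOpen_iff.mp hU p hp
  obtain ⟨δ, hδ, hV0⟩ := Metric.isOpen_iff.mp hV (F p) (hbij.mapsTo hp)
  set G : E n → X := fun w => if h : w ∈ F '' U then h.choose else p with hGdef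
  have hG1 : ∀ w ∈ V, G w ∈ U ∧ F (G w) = w := by
    intro w hw
    have hw' : w ∈ F '' U := hbij.surjOn hw
    simp only [hGdef, dif_pos hw']
    exact hw'.choose_spec
  have hG2 : ∀ x ∈ U, G (F x) = x := fun x hx =>
    hbij.injOn (hG1 _ (hbij.mapsTo hx)).1 hx (hG1 _ (hbij.mapsTo hx)).2
  set ρ : ℝ := min ρ0 (δ / L) with hρdef
  have hρ : 0 < ρ := lt_min hρ0 (by positivity)
  have hρ1 : ρ ≤ ρ0 := min_le_left _ _
  have hρ2 : L * ρ ≤ δ := by
    have : ρ ≤ δ / L := min_le_right _ _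
    rwa [le_div_iff₀ hL0, mul_comm] at this
  have hLL : 1 ≤ L * L := by nlinarith
  refine ⟨ρ, L * L, hρ, hLL, Eventually.frequently ?_⟩
  filter_upwards [Ioo_mem_nhdsGT (zero_lt_one' ℝ)] with r hr
  obtain ⟨hr0, hr1⟩ := hr
  have hball : ∀ a ∈ ball p ρ, a ∈ U := fun a ha => hU0 (ball_subset_ball hρ1 ha)
  have hds : ∀ u v : E n, dist (F p + r • (u - F p)) (F p + r • (v - F p)) = r * dist u v := by
    intro u v
    rw [dist_add_left, dist_smul₀, dist_sub_right, Real.norm_of_nonneg hr0.le]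
  have hinV : ∀ a ∈ ball p ρ, F p + r • (F a - F p) ∈ V := by
    intro a ha
    refine hV0 ?_
    have h1 := hds (F a) (F p)
    rw [sub_self, smul_zero, add_zero] at h1
    have h2 := (hb a (hball a ha) p hp).2
    have h3 : L * dist a p < L * ρ := mul_lt_mul_of_pos_left ha hL0
    have h4 : r * dist (F a) (F p) ≤ dist (F a) (F p) :=
      mul_le_of_le_one_left dist_nonneg hr1.le
    rw [mem_ball, h1]
    linarith
  refine ⟨p, rfl, fun a => G (F p + r • (F a - F p)), ?_, fun a ha b hb' => ?_, fun x hx => ?_⟩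
  · simp only [sub_self, smul_zero, add_zero]
    exact hG2 p hp
  · obtain ⟨a1, a2⟩ := hG1 _ (hinV a ha)
    obtain ⟨b1, b2⟩ := hG1 _ (hinV b hb')
    obtain ⟨c1, c2⟩ := hb _ a1 _ b1
    obtain ⟨d1, d2⟩ := hb _ (hball a ha) _ (hball b hb')
    rw [a2, b2, hds] at c1 c2
    rw [inv_mul_le_iff' hL0] at c1 d1
    refine ⟨?_, ?_⟩
    · rw [inv_mul_le_iff' (by positivity), ← mul_div_assoc, le_div_iff₀ hr0]
      have e1 : dist a b * r ≤ L * dist (F a) (F b) * r := by gcongr
      have e2 := mul_le_mul_of_nonneg_left c2 hL0.le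
      nlinarith
    · rw [div_le_iff₀ hr0]
      have e1 : L * (r * dist (F a) (F b)) ≤ L * (r * (L * dist a b)) := by gcongr
      nlinarith
  · have hx1 : dist x p < ρ / (L * L) * r := hx
    have h0 : ρ / (L * L) ≤ ρ := div_le_self hρ.le hLL
    have h00 : ρ / (L * L) * r ≤ ρ / (L * L) := mul_le_of_le_one_right (by positivity) hr1.le
    have hxU : x ∈ U := hball x (by rw [mem_ball]; linarith)
    set w : E n := F p + r⁻¹ • (F x - F p) with hw
    have hwd : dist w (F p) = r⁻¹ * dist (F x) (F p) := by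
      rw [hw, dist_eq_norm, add_sub_cancel_left, norm_smul, Real.norm_of_nonneg (by positivity),
        dist_eq_norm]
    have h2 := (hb x hxU p hp).2
    have h3 : dist w (F p) < ρ / L := by
      rw [hwd, inv_mul_lt_iff₀ hr0]
      have e1 : L * dist x p < L * (ρ / (L * L) * r) := mul_lt_mul_of_pos_left hx1 hL0
      have e2 : L * (ρ / (L * L) * r) = r * (ρ / L) := by field_simp
      linarith
    have h4 : ρ / L ≤ δ := by
      have : ρ / L ≤ ρ := div_le_self hρ.le hL
      nlinarith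
    have hwV : w ∈ V := hV0 (by rw [mem_ball]; linarith)
    obtain ⟨w1, w2⟩ := hG1 w hwV
    refine ⟨G w, ?_, ?_⟩
    · have h5 := (hb _ w1 p hp).1
      rw [w2, inv_mul_le_iff' hL0] at h5
      have h6 : L * dist w (F p) < L * (ρ / L) := mul_lt_mul_of_pos_left h3 hL0
      have h7 : L * (ρ / L) = ρ := by field_simp
      rw [mem_ball]
      linarith
    · have e : F p + r • (w - F p) = F x := by
        rw [hw, add_sub_cancel_left, smul_smul, mul_inv_cancel₀ hr0.ne', one_smul, add_sub_cancel]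
      simp only [w2, e]
      exact hG2 x hxU

end Vale.Agent.P242
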