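import Mathlib

/-! Regular points, bi-Lipschitz charts and rescaled copies of balls. -/

namespace Vale.Agent.P242

open Metric Set Filter Topology

/-- Euclidean space of dimension `n`. -/
abbrev E (n : ℕ) : Type := EuclideanSpace ℝ (Fin n)

/-- The ball of radius `R` about `p` for the rescaled distance `d / r` has a pointed
`ε`-approximation to the Euclidean ball of radius `R` about the origin. -/
def Approx (n : ℕ) {X : Type*} [MetricSpace X] (p : X) (r R ε : ℝ) : Prop :=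
  ∃ g : X → E n, g p = 0 ∧
    (∀ x ∈ ball p (R * r), ∀ y ∈ ball p (R * r), |dist (g x) (g y) - dist x y / r| ≤ ε) ∧
    ∀ z ∈ ball (0 : E n) (R - ε), ∃ x ∈ ball p (R * r), dist (g x) z ≤ ε

/-- The rescaled pointed spaces `(X, d / r, p)` converge to Euclidean space in the pointed
Gromov-Hausdorff sense as `r` decreases to zero. -/
def Regular (n : ℕ) {X : Type*} [MetricSpace X] (p : X) : Prop :=
  ∀ R : ℝ, 0 < R → ∀ ε : ℝ, 0 < ε → ∀ᶠ r in 𝓝[>] (0 : ℝ), Approx n p r R ε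

/-- A bi-Lipschitz bijection from an open neighbourhood of `p` onto an open Euclidean set. -/
def Chart (n : ℕ) {X : Type*} [MetricSpace X] (p : X) : Prop :=
  ∃ (U : Set X) (V : Set (E n)) (F : X → E n) (L : ℝ), 1 ≤ L ∧ IsOpen U ∧ p ∈ U ∧ IsOpen V ∧
    BijOn F U V ∧ ∀ x ∈ U, ∀ z ∈ U,
      L⁻¹ * dist x z ≤ dist (F x) (F z) ∧ dist (F x) (F z) ≤ L * dist x z

/-- The map `ψ` sends `y` to `p`, is `L`-bi-Lipschitz on the ball of radius `ρ` about `y` for the
rescaled distance `d / r` of the target, and covers the rescaled ball of radius `ρ / L`. -/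
def Copy {X Y : Type*} [MetricSpace X] [MetricSpace Y] (ψ : Y → X) (y : Y) (p : X)
    (r ρ L : ℝ) : Prop :=
  ψ y = p ∧
    (∀ a ∈ ball y ρ, ∀ b ∈ ball y ρ,
      L⁻¹ * dist a b ≤ dist (ψ a) (ψ b) / r ∧ dist (ψ a) (ψ b) / r ≤ L * dist a b) ∧
    ball p (ρ / L * r) ⊆ ψ '' ball y ρ

/-- At arbitrarily small scales `r` the rescaled space about `p` is, with uniform constants, a
bi-Lipschitz copy of a ball of `Y` with centre in `K`. -/
def Modelled {X Y : Type*} [MetricSpace X] [MetricSpace Y] (K : Set Y) (p : X) : Prop :=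
  ∃ ρ L : ℝ, 0 < ρ ∧ 1 ≤ L ∧ ∃ᶠ r in 𝓝[>] (0 : ℝ), ∃ y ∈ K, ∃ ψ : Y → X, Copy ψ y p r ρ L

end Vale.Agent.P242
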