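import Vale.Agent.P242.Defs

/-! Contractions that are asymptotically similarities at their fixed point. -/

namespace Vale.Agent.P242

open Metric Set Filter Topology

/-- The map `ψ` fixes `p`, covers a neighbourhood of `p`, and on the ball of radius `μ ^ k ρ`
about `p` multiplies distances by `lam` up to the factor `exp (om k)`, where `om` is summable and
`lam * exp (om k) ≤ μ < 1`. -/
def DiniContraction {X : Type*} [MetricSpace X] (ψ : X → X) (p : X) : Prop :=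
  ∃ (ρ lam μ : ℝ) (om : ℕ → ℝ), 0 < ρ ∧ 0 < lam ∧ μ < 1 ∧ ψ p = p ∧ ψ '' ball p ρ ∈ 𝓝 p ∧
    (∀ k, 0 ≤ om k) ∧ Summable om ∧ (∀ k, lam * Real.exp (om k) ≤ μ) ∧
    ∀ k : ℕ, ∀ a ∈ ball p (μ ^ k * ρ), ∀ b ∈ ball p (μ ^ k * ρ),
      Real.exp (-om k) * (lam * dist a b) ≤ dist (ψ a) (ψ b) ∧
        dist (ψ a) (ψ b) ≤ Real.exp (om k) * (lam * dist a b)

end Vale.Agent.P242
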