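import Vale.Agent.P242.Conv

namespace Vale.Agent.P242

open Metric Set Filter Topology

/-- A contraction fixing `p` whose distortion is summable over scales gives rescaled copies. -/
theorem modelled_of_contraction {X : Type*} [MetricSpace X] {p : X} (ψ : X → X) {ρ lam mu : ℝ}
    (om : ℕ → ℝ) (hρ : 0 < ρ) (hlam : 0 < lam) (hmu0 : 0 < mu) (hmu : mu < 1) (h0 : ψ p = p)
    (hom0 : ∀ k, 0 ≤ om k) (hsum : Summable om) (hlm : ∀ k, lam * Real.exp (om k) ≤ mu)
    (hd : ∀ k, ∀ a ∈ ball p (mu ^ k * ρ), ∀ b ∈ ball p (mu ^ k * ρ),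
      Real.exp (-om k) * (lam * dist a b) ≤ dist (ψ a) (ψ b) ∧
        dist (ψ a) (ψ b) ≤ Real.exp (om k) * (lam * dist a b))
    (hon : ψ '' ball p ρ ∈ 𝓝 p) : Modelled ({p} : Set X) p := by
  obtain ⟨c, hc, hcs⟩ := Metric.mem_nhds_iff.mp hon
  set S : ℕ → ℝ := fun k => ∑ j ∈ Finset.range k, om j with hS
  have hS0 : ∀ k, 0 ≤ S k := fun k => Finset.sum_nonneg fun j _ => hom0 j
  have hST : ∀ k, S k ≤ ∑' j, om j := fun k => hsum.sum_le_tsum _ fun j _ => hom0 j
  have hSs : ∀ k, S (k + 1) = S k + om k := fun k => Finset.sum_range_succ _ _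
  have hfix : ∀ k, ψ^[k] p = p := fun k => Function.iterate_fixed h0 k
  have hlam1 : lam < 1 := by
    have h1 := hlm 0
    have h2 : 1 ≤ Real.exp (om 0) := Real.one_le_exp (hom0 0)
    nlinarith
  have hin : ∀ k, ∀ a ∈ ball p ρ, ψ^[k] a ∈ ball p (mu ^ k * ρ) := by
    intro k a ha
    induction k with
    | zero => simpa using ha
    | succ k ih =>
      have h1 := (hd k _ ih p (mem_ball_self (by positivity))).2
      rw [h0] at h1
      rw [Function.iterate_succ_apply', mem_ball]
      have h2 : dist (ψ^[k] a) p < mu ^ k * ρ := ih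
      have h3 : Real.exp (om k) * (lam * dist (ψ^[k] a) p) ≤ mu * dist (ψ^[k] a) p := by
        rw [← mul_assoc, mul_comm (Real.exp (om k))]
        exact mul_le_mul_of_nonneg_right (hlm k) dist_nonneg
      have h4 : mu * dist (ψ^[k] a) p < mu * (mu ^ k * ρ) := mul_lt_mul_of_pos_left h2 hmu0
      calc dist (ψ (ψ^[k] a)) p < mu * (mu ^ k * ρ) := by linarith
        _ = mu ^ (k + 1) * ρ := by ring
  have hit : ∀ k, ∀ a ∈ ball p ρ, ∀ b ∈ ball p ρ,
      Real.exp (-S k) * (lam ^ k * dist a b) ≤ dist (ψ^[k] a) (ψ^[k] b) ∧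
        dist (ψ^[k] a) (ψ^[k] b) ≤ Real.exp (S k) * (lam ^ k * dist a b) := by
    intro k a ha b hb
    induction k with
    | zero => simp [hS]
    | succ k ih =>
      obtain ⟨h1, h2⟩ := hd k _ (hin k a ha) _ (hin k b hb)
      rw [Function.iterate_succ_apply', Function.iterate_succ_apply', hSs]
      refine ⟨le_trans ?_ h1, h2.trans ?_⟩
      · calc Real.exp (-(S k + om k)) * (lam ^ (k + 1) * dist a b)
            = Real.exp (-om k) * (lam * (Real.exp (-S k) * (lam ^ k * dist a b))) := by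
              rw [neg_add, Real.exp_add]; ring
          _ ≤ _ := by gcongr; exact ih.1
      · calc Real.exp (om k) * (lam * dist (ψ^[k] a) (ψ^[k] b))
            ≤ Real.exp (om k) * (lam * (Real.exp (S k) * (lam ^ k * dist a b))) := by
              gcongr; exact ih.2
          _ = _ := by rw [Real.exp_add]; ring
  set T : ℝ := Real.exp (∑' j, om j) with hT
  have hT1 : 1 ≤ T := Real.one_le_exp (tsum_nonneg hom0)
  have hT0 : 0 < T := by linarith
  have hlow : ∀ k, ∀ a ∈ ball p ρ, ∀ b ∈ ball p ρ,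
      lam ^ k * dist a b ≤ T * dist (ψ^[k] a) (ψ^[k] b) := by
    intro k a ha b hb
    have h1 := (hit k a ha b hb).1
    rw [Real.exp_neg, inv_mul_le_iff' (Real.exp_pos _)] at h1
    exact h1.trans (mul_le_mul_of_nonneg_right (Real.exp_le_exp.mpr (hST k)) dist_nonneg)
  set c' : ℝ := min c ρ with hc'
  have hc'0 : 0 < c' := lt_min hc hρ
  have hsur : ∀ k, ∀ x ∈ ball p (c' / T * lam ^ k), ∃ a ∈ ball p ρ, ψ^[k] a = x := by
    intro k
    induction k with
    | zero =>
      intro x hx
      refine ⟨x, ball_subset_ball ?_ hx, rfl⟩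
      rw [pow_zero, mul_one]
      exact (div_le_self hc'0.le hT1).trans (min_le_right _ _)
    | succ k ih =>
      intro x hx
      have hx' : x ∈ ball p (c' / T * lam ^ k) := by
        refine ball_subset_ball ?_ hx
        refine mul_le_mul_of_nonneg_left ?_ (by positivity)
        rw [pow_succ]
        exact mul_le_of_le_one_right (by positivity) hlam1.le
      obtain ⟨a, ha, rfl⟩ := ih x hx'
      have h1 := hlow k a ha p (mem_ball_self hρ)
      rw [hfix] at h1
      have h2 : T * dist (ψ^[k] a) p < T * (c' / T * lam ^ k) := mul_lt_mul_of_pos_left hx' hT0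
      have h3 : T * (c' / T * lam ^ k) = lam ^ k * c' := by field_simp
      have h4 : dist a p < c' := lt_of_mul_lt_mul_left (by linarith) (pow_pos hlam k).le
      obtain ⟨a', ha', rfl⟩ := hcs (show a ∈ ball p c from h4.trans_le (min_le_left _ _))
      exact ⟨a', ha', by rw [Function.iterate_succ_apply]⟩
  set L : ℝ := T * (ρ / c') with hL
  have hq : 1 ≤ ρ / c' := (one_le_div hc'0).mpr (min_le_right _ _)
  have hTL : T ≤ L := le_mul_of_one_le_right hT0.le hq
  have hL0 : 0 < L := by linarith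
  refine ⟨ρ, L, hρ, hT1.trans hTL, ?_⟩
  have htend : Tendsto (fun k : ℕ => lam ^ k) atTop (𝓝[>] (0 : ℝ)) :=
    tendsto_nhdsWithin_iff.mpr ⟨tendsto_pow_atTop_nhds_zero_of_lt_one hlam.le hlam1,
      Eventually.of_forall fun k => pow_pos hlam k⟩
  refine htend.frequently (Eventually.frequently (Eventually.of_forall fun k => ?_))
  have hk : 0 < lam ^ k := pow_pos hlam k
  refine ⟨p, rfl, ψ^[k], hfix k, fun a ha b hb => ⟨?_, ?_⟩, fun x hx => ?_⟩
  · rw [inv_mul_le_iff' hL0, ← mul_div_assoc, le_div_iff₀ hk, mul_comm]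
    exact (hlow k a ha b hb).trans (mul_le_mul_of_nonneg_right hTL dist_nonneg)
  · rw [div_le_iff₀ hk]
    have h1 := (hit k a ha b hb).2
    have h2 : Real.exp (S k) ≤ L := (Real.exp_le_exp.mpr (hST k)).trans hTL
    calc dist (ψ^[k] a) (ψ^[k] b) ≤ L * (lam ^ k * dist a b) :=
          h1.trans (mul_le_mul_of_nonneg_right h2 (by positivity))
      _ = L * dist a b * lam ^ k := by ring
  · have e : ρ / L = c' / T := by rw [hL]; field_simp
    rw [e] at hx
    exact hsur k x hx

end Vale.Agent.P242
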