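import Vale.Agent.P242.Loc

namespace Vale.Agent.P242

open Metric Set Filter Topology

theorem ultra_lim {Z : Type*} [MetricSpace Z] [ProperSpace Z] (U : Ultrafilter ℕ) (u : ℕ → Z)
    (z0 : Z) (R : ℝ) (h : ∀ᶠ k in (U : Filter ℕ), u k ∈ closedBall z0 R) :
    ∃ z, Tendsto u (U : Filter ℕ) (𝓝 z) := by
  obtain ⟨z, -, hz⟩ := (isCompact_closedBall z0 R).ultrafilter_le_nhds (U.map u)
    (by rw [Ultrafilter.coe_map, le_principal_iff, mem_map]; exact h)
  exact ⟨z, hz⟩

theorem chart_of_seq {n : ℕ} {X Y : Type*} [MetricSpace X] [MetricSpace Y] [ProperSpace Y]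
    {p : X} {K : Set Y} (hK : Bornology.IsBounded K) {ρ L : ℝ} (hρ : 0 < ρ) (hL : 1 ≤ L)
    (h : ∀ ε : ℝ, 0 < ε → ∃ r : ℝ, 0 < r ∧ Approx n p r (L * ρ + 1) ε ∧
      ∃ y ∈ K, ∃ ψ : Y → X, Copy ψ y p r ρ L) : Chart n p := by
  classical
  have hL0 : 0 < L := by linarith
  set e : ℕ → ℝ := fun k => 1 / ((k : ℝ) + 1) with he
  have hep : ∀ k, 0 < e k := fun k => by positivity
  have he1 : ∀ k, e k ≤ 1 := fun k => by
    rw [he]
    exact div_le_one_of_le₀ (by linarith [Nat.cast_nonneg (α := ℝ) k]) (by positivity)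
  choose r hr hap y hyK ψ hψ using fun k => h (e k) (hep k)
  choose g hg0 hgd hgo using hap
  set U : Ultrafilter ℕ := hyperfilter ℕ with hU
  have he0 : Tendsto e (U : Filter ℕ) (𝓝 0) :=
    tendsto_one_div_add_atTop_nhds_zero_nat.mono_left
      (by rw [← Nat.cofinite_eq_atTop]; exact hyperfilter_le_cofinite)
  obtain ⟨RK, hRK⟩ := hK.subset_closedBall (y 0)
  obtain ⟨y0, hy0⟩ := ultra_lim U y (y 0) RK (Eventually.of_forall fun k => hRK (hyK k))
  have hpin : ∀ k, p ∈ ball p ((L * ρ + 1) * r k) := fun k =>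
    mem_ball_self (by have := hr k; positivity)
  have hin : ∀ k, ∀ a ∈ ball (y k) ρ, ψ k a ∈ ball p ((L * ρ + 1) * r k) := by
    intro k a ha
    have h1 := ((hψ k).2.1 a ha (y k) (mem_ball_self hρ)).2
    rw [(hψ k).1, div_le_iff₀ (hr k)] at h1
    have h2 : L * dist a (y k) < L * ρ := mul_lt_mul_of_pos_left ha hL0
    rw [mem_ball]
    exact h1.trans_lt (mul_lt_mul_of_pos_right (by linarith) (hr k))
  have hG : ∀ k, ∀ a ∈ ball (y k) ρ, ∀ b ∈ ball (y k) ρ,
      L⁻¹ * dist a b - e k ≤ dist (g k (ψ k a)) (g k (ψ k b)) ∧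
        dist (g k (ψ k a)) (g k (ψ k b)) ≤ L * dist a b + e k := by
    intro k a ha b hb
    obtain ⟨h1, h2⟩ := (hψ k).2.1 a ha b hb
    obtain ⟨h3, h4⟩ := abs_le.mp (hgd k _ (hin k a ha) _ (hin k b hb))
    exact ⟨by linarith, by linarith⟩
  have hev : ∀ a ∈ ball y0 ρ, ∀ᶠ k in (U : Filter ℕ), a ∈ ball (y k) ρ := by
    intro a ha
    have : Tendsto (fun k => dist a (y k)) (U : Filter ℕ) (𝓝 (dist a y0)) :=
      tendsto_const_nhds.dist hy0
    exact this.eventually (gt_mem_nhds ha)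
  have hG0 : ∀ k, g k (ψ k (y k)) = 0 := fun k => by rw [(hψ k).1, hg0]
  have hlim : ∀ a : Y, ∃ z : E n, a ∈ ball y0 ρ →
      Tendsto (fun k => g k (ψ k a)) (U : Filter ℕ) (𝓝 z) := by
    intro a
    by_cases ha : a ∈ ball y0 ρ
    · obtain ⟨z, hz⟩ := ultra_lim U (fun k => g k (ψ k a)) 0 (L * ρ + 1) (by
        filter_upwards [hev a ha] with k hk
        have h1 := (hG k a hk (y k) (mem_ball_self hρ)).2
        rw [hG0] at h1
        have h2 : L * dist a (y k) < L * ρ := mul_lt_mul_of_pos_left hk hL0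
        rw [mem_closedBall]
        linarith [he1 k])
      exact ⟨z, fun _ => hz⟩
    · exact ⟨0, fun h => absurd h ha⟩
  choose F hF using hlim
  have hFb : ∀ a ∈ ball y0 ρ, ∀ b ∈ ball y0 ρ,
      L⁻¹ * dist a b ≤ dist (F a) (F b) ∧ dist (F a) (F b) ≤ L * dist a b := by
    intro a ha b hb
    have hd := (hF a ha).dist (hF b hb)
    refine ⟨?_, ?_⟩
    · have h1 : Tendsto (fun k => L⁻¹ * dist a b - e k) (U : Filter ℕ) (𝓝 (L⁻¹ * dist a b - 0)) :=
        tendsto_const_nhds.sub he0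
      rw [sub_zero] at h1
      refine le_of_tendsto_of_tendsto h1 hd ?_
      filter_upwards [hev a ha, hev b hb] with k hka hkb using (hG k a hka b hkb).1
    · have h1 : Tendsto (fun k => L * dist a b + e k) (U : Filter ℕ) (𝓝 (L * dist a b + 0)) :=
        tendsto_const_nhds.add he0
      rw [add_zero] at h1
      refine le_of_tendsto_of_tendsto hd h1 ?_
      filter_upwards [hev a ha, hev b hb] with k hka hkb using (hG k a hka b hkb).2
  have hzero : ∀ (a : Y) (u : ℕ → Y) (z : E n), a ∈ ball y0 ρ → Tendsto u (U : Filter ℕ) (𝓝 a) →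
      (∀ᶠ k in (U : Filter ℕ), u k ∈ ball (y k) ρ ∧ dist (g k (ψ k (u k))) z ≤ e k) →
      F a = z := by
    intro a u z ha hu hz
    have h1 : Tendsto (fun k => L * dist a (u k) + e k + e k) (U : Filter ℕ)
        (𝓝 (L * dist a a + 0 + 0)) :=
      ((tendsto_const_nhds.mul (tendsto_const_nhds.dist hu)).add he0).add he0
    rw [dist_self, mul_zero, add_zero, add_zero] at h1
    have h2 : Tendsto (fun k => dist (g k (ψ k a)) z) (U : Filter ℕ) (𝓝 (dist (F a) z)) :=
      (hF a ha).dist tendsto_const_nhds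
    refine dist_le_zero.mp (le_of_tendsto_of_tendsto h2 h1 ?_)
    filter_upwards [hev a ha, hz] with k hka hk
    have := (hG k a hka (u k) hk.1).2
    linarith [dist_triangle (g k (ψ k a)) (g k (ψ k (u k))) z, hk.2]
  have hy0in : y0 ∈ ball y0 ρ := mem_ball_self hρ
  have hF0 : F y0 = 0 := hzero y0 y 0 hy0in hy0 (Eventually.of_forall fun k =>
    ⟨mem_ball_self hρ, by rw [hG0, dist_self]; exact (hep k).le⟩)
  set δ : ℝ := ρ / (2 * L) with hδ
  have hδp : 0 < δ := by positivity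
  have hδ1 : δ ≤ ρ / L := div_le_div_of_nonneg_left hρ.le hL0 (by linarith)
  have hδ2 : L * δ = ρ / 2 := by rw [hδ]; field_simp
  have hδ3 : δ ≤ L * ρ := by
    have : ρ / L ≤ ρ := div_le_self hρ.le hL
    nlinarith
  have hon : ball (0 : E n) δ ⊆ F '' ball y0 ρ := by
    intro z hz
    have hx : ∀ k, ∃ x ∈ ball p ((L * ρ + 1) * r k), dist (g k x) z ≤ e k := fun k =>
      hgo k z (ball_subset_ball (by linarith [he1 k]) hz)
    choose x hx1 hx2 using hx
    have hsm : ∀ᶠ k in (U : Filter ℕ), e k < (δ - dist z 0) / 2 :=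
      he0.eventually (gt_mem_nhds (by have : dist z 0 < δ := hz; linarith))
    have ha : ∀ k, ∃ a : Y, e k < (δ - dist z 0) / 2 →
        a ∈ ball (y k) ρ ∧ ψ k a = x k ∧ dist a (y k) ≤ ρ / 2 := by
      intro k
      by_cases hk : e k < (δ - dist z 0) / 2
      · have h1 := (abs_le.mp (hgd k _ (hx1 k) _ (hpin k))).1
        rw [hg0] at h1
        have h2 : dist (x k) p / r k < δ := by
          linarith [dist_triangle (g k (x k)) z 0, hx2 k]
        have h3 : x k ∈ ball p (ρ / L * r k) := by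
          rw [mem_ball, ← div_lt_iff₀ (hr k)]; linarith
        obtain ⟨a, ha1, ha2⟩ := (hψ k).2.2 h3
        refine ⟨a, fun _ => ⟨ha1, ha2, ?_⟩⟩
        have h4 := ((hψ k).2.1 a ha1 (y k) (mem_ball_self hρ)).1
        rw [ha2, (hψ k).1, inv_mul_le_iff' hL0] at h4
        have h5 : L * (dist (x k) p / r k) < L * δ := mul_lt_mul_of_pos_left h2 hL0
        linarith
      · exact ⟨y0, fun h => absurd h hk⟩
    choose a ha using ha
    have hnear : ∀ᶠ k in (U : Filter ℕ), dist (y k) y0 < 1 :=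
      (tendsto_iff_dist_tendsto_zero.mp hy0).eventually (gt_mem_nhds one_pos)
    obtain ⟨a0, ha0⟩ := ultra_lim U a y0 (ρ / 2 + 1) (by
      filter_upwards [hsm, hnear] with k hk hk2
      rw [mem_closedBall]
      linarith [dist_triangle (a k) (y k) y0, (ha k hk).2.2])
    have hd : dist a0 y0 ≤ ρ / 2 := by
      refine le_of_tendsto (ha0.dist hy0) ?_
      filter_upwards [hsm] with k hk using (ha k hk).2.2
    have ha0in : a0 ∈ ball y0 ρ := by rw [mem_ball]; linarith
    refine ⟨a0, ha0in, hzero a0 a z ha0in ha0 ?_⟩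
    filter_upwards [hsm] with k hk
    exact ⟨(ha k hk).1, by rw [(ha k hk).2.1]; exact hx2 k⟩
  have hfin : ∀ᶠ k in (U : Filter ℕ), dist (y k) y0 < min (ρ / 2) (δ / (2 * L)) :=
    (tendsto_iff_dist_tendsto_zero.mp hy0).eventually
      (gt_mem_nhds (lt_min (by positivity) (by positivity)))
  obtain ⟨k, hk⟩ := hfin.exists
  have hk1 : dist (y k) y0 < ρ / 2 := hk.trans_le (min_le_left _ _)
  have hk2 : dist (y k) y0 < δ / (2 * L) := hk.trans_le (min_le_right _ _)
  refine chart_of_copy (hr k) hρ hL hδp (hψ k) F hFb hon hk1 ?_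
  have h1 := (hFb (y k) (by rw [mem_ball]; linarith) y0 hy0in).2
  rw [hF0, dist_zero_right] at h1
  have h2 : L * dist (y k) y0 < L * (δ / (2 * L)) := mul_lt_mul_of_pos_left hk2 hL0
  have h3 : L * (δ / (2 * L)) = δ / 2 := by field_simp
  linarith

theorem chart_of_modelled {n : ℕ} {X Y : Type*} [MetricSpace X] [MetricSpace Y] [ProperSpace Y]
    {p : X} {K : Set Y} (hK : Bornology.IsBounded K) (hreg : Regular n p) (hm : Modelled K p) :
    Chart n p := by
  obtain ⟨ρ, L, hρ, hL, hfr⟩ := hm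
  refine chart_of_seq hK hρ hL fun ε hε => ?_
  have h1 := hreg (L * ρ + 1) (by positivity) ε hε
  obtain ⟨r, h2, h3, h4⟩ := (hfr.and_eventually (h1.and self_mem_nhdsWithin)).exists
  exact ⟨r, h4, h3, h2⟩

end Vale.Agent.P242
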