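import Vale.Agent.P242.Defs

namespace Vale.Agent.P242

open Metric Set Filter Topology

theorem chart_of_loc {n : ℕ} {X : Type*} [MetricSpace X] {p : X} (H : X → E n) {ρ L c : ℝ}
    (hρ : 0 < ρ) (hL : 1 ≤ L) (hc : 0 < c)
    (hb : ∀ x ∈ ball p ρ, ∀ z ∈ ball p ρ,
      L⁻¹ * dist x z ≤ dist (H x) (H z) ∧ dist (H x) (H z) ≤ L * dist x z)
    (ho : ball (H p) c ⊆ H '' ball p ρ) : Chart n p := by
  have hL0 : 0 < L := by linarith
  have hcont : ContinuousOn H (ball p ρ) := by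
    have : LipschitzOnWith (Real.toNNReal L) H (ball p ρ) := by
      refine LipschitzOnWith.of_dist_le_mul fun x hx z hz => ?_
      rw [Real.coe_toNNReal _ hL0.le]
      exact (hb x hx z hz).2
    exact this.continuousOn
  refine ⟨ball p ρ ∩ H ⁻¹' ball (H p) c, ball (H p) c, H, L, hL,
    hcont.isOpen_inter_preimage isOpen_ball isOpen_ball, ⟨mem_ball_self hρ, mem_ball_self hc⟩,
    isOpen_ball, ⟨fun x hx => hx.2, fun x hx z hz hxz => ?_, fun w hw => ?_⟩,
    fun x hx z hz => hb x hx.1 z hz.1⟩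
  · have h := (hb x hx.1 z hz.1).1
    rw [hxz, dist_self] at h
    have h2 : dist x z ≤ 0 := by
      by_contra hne
      have := mul_pos (inv_pos.mpr hL0) (not_le.mp hne)
      linarith
    exact dist_le_zero.mp h2
  · obtain ⟨x, hx, rfl⟩ := ho hw
    exact ⟨x, ⟨hx, hw⟩, rfl⟩

theorem inv_mul_le_iff' {L a b : ℝ} (hL : 0 < L) : L⁻¹ * a ≤ b ↔ a ≤ L * b := by
  rw [inv_mul_le_iff₀ hL]

/-- Transport of a chart through a copy. -/
theorem chart_of_copy {n : ℕ} {X Y : Type*} [MetricSpace X] [MetricSpace Y] {p : X} {ψ : Y → X}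
    {y y0 : Y} {r ρ L δ : ℝ} (hr : 0 < r) (hρ : 0 < ρ) (hL : 1 ≤ L) (hδ : 0 < δ)
    (hc : Copy ψ y p r ρ L) (F : Y → E n)
    (hF : ∀ a ∈ ball y0 ρ, ∀ b ∈ ball y0 ρ,
      L⁻¹ * dist a b ≤ dist (F a) (F b) ∧ dist (F a) (F b) ≤ L * dist a b)
    (hon : ball (0 : E n) δ ⊆ F '' ball y0 ρ) (hy : dist y y0 < ρ / 2)
    (hFy : ‖F y‖ < δ / 2) : Chart n p := by
  classical
  have hL0 : 0 < L := by linarith
  obtain ⟨h0, hb, hs⟩ := hc
  have hyy : y ∈ ball y ρ := mem_ball_self hρ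
  have hy0 : y ∈ ball y0 ρ := by rw [mem_ball]; linarith
  have hinj : InjOn ψ (ball y ρ) := by
    intro a ha b hb' hab
    have h := (hb a ha b hb').1
    rw [hab, dist_self, zero_div, inv_mul_le_iff' hL0, mul_zero] at h
    exact dist_le_zero.mp h
  set φ : X → Y := fun x => if h : x ∈ ψ '' ball y ρ then h.choose else y with hφ
  have hφ1 : ∀ x ∈ ψ '' ball y ρ, φ x ∈ ball y ρ ∧ ψ (φ x) = x := by
    intro x hx
    simp only [hφ, dif_pos hx]
    exact hx.choose_spec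
  have hφ2 : ∀ a ∈ ball y ρ, φ (ψ a) = a := fun a ha =>
    hinj (hφ1 _ ⟨a, ha, rfl⟩).1 ha (hφ1 _ ⟨a, ha, rfl⟩).2
  have hφp : φ p = y := by rw [← h0]; exact hφ2 y hyy
  set ρ1 : ℝ := ρ / (2 * L) * r with hρ1
  have hρ1p : 0 < ρ1 := by positivity
  have hsub : ball p ρ1 ⊆ ψ '' ball y ρ := by
    refine Subset.trans (ball_subset_ball ?_) hs
    refine mul_le_mul_of_nonneg_right ?_ hr.le
    exact div_le_div_of_nonneg_left hρ.le hL0 (by linarith)
  have hmap : ∀ x ∈ ball p ρ1, φ x ∈ ball y0 ρ := by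
    intro x hx
    obtain ⟨h1, h2⟩ := hφ1 x (hsub hx)
    have h := (hb _ h1 y hyy).1
    rw [h2, h0, inv_mul_le_iff' hL0] at h
    have h3 : dist x p / r < ρ / (2 * L) := by
      rw [div_lt_iff₀ hr]; exact hx
    have h4 : L * (dist x p / r) < L * (ρ / (2 * L)) := mul_lt_mul_of_pos_left h3 hL0
    have h5 : L * (ρ / (2 * L)) = ρ / 2 := by field_simp
    rw [mem_ball]
    linarith [dist_triangle (φ x) y y0]
  set M : ℝ := L * L * (r + r⁻¹) with hM
  have hrr : 1 ≤ r + r⁻¹ := by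
    rcases le_total 1 r with h | h
    · linarith [inv_pos.mpr hr]
    · have : 1 ≤ r⁻¹ := one_le_inv_iff₀.mpr ⟨hr, h⟩
      linarith
  have hLL : 1 ≤ L * L := by nlinarith
  have hM1 : 1 ≤ M := by nlinarith
  set c : ℝ := min (δ / 2) (ρ / (2 * L * L * L)) with hcdef
  have hcp : 0 < c := lt_min (by positivity) (by positivity)
  refine chart_of_loc (fun x => F (φ x)) hρ1p hM1 hcp (fun x hx z hz => ?_) fun w hw => ?_
  · obtain ⟨hx1, hx2⟩ := hφ1 x (hsub hx)
    obtain ⟨hz1, hz2⟩ := hφ1 z (hsub hz)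
    obtain ⟨a1, a2⟩ := hb _ hx1 _ hz1
    obtain ⟨b1, b2⟩ := hF _ (hmap x hx) _ (hmap z hz)
    rw [hx2, hz2] at a1 a2
    rw [inv_mul_le_iff' hL0] at a1 b1
    rw [div_le_iff₀ hr] at a2
    have hd1 : 0 ≤ dist (F (φ x)) (F (φ z)) := dist_nonneg
    have hd2 : 0 ≤ dist x z := dist_nonneg
    have hri : 0 < r⁻¹ := inv_pos.mpr hr
    refine ⟨?_, ?_⟩
    · rw [inv_mul_le_iff' (by linarith)]
      have e1 : L * dist (φ x) (φ z) * r ≤ L * (L * dist (F (φ x)) (F (φ z))) * r := by gcongr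
      have e2 : 0 ≤ L * L * r⁻¹ * dist (F (φ x)) (F (φ z)) := by positivity
      calc dist x z ≤ L * (L * dist (F (φ x)) (F (φ z))) * r := a2.trans e1
        _ ≤ M * dist (F (φ x)) (F (φ z)) := by rw [hM]; nlinarith
    · have e1 : L * dist (φ x) (φ z) ≤ L * (L * (dist x z / r)) := by gcongr
      have e2 : 0 ≤ L * L * r * dist x z := by positivity
      calc dist (F (φ x)) (F (φ z)) ≤ L * (L * (dist x z / r)) := b2.trans e1
        _ ≤ M * dist x z := by rw [hM, div_eq_mul_inv]; nlinarith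
  · simp only [hφp, mem_ball] at hw
    have hw1 : dist w (F y) < δ / 2 := hw.trans_le (min_le_left _ _)
    have hw2 : dist w (F y) < ρ / (2 * L * L * L) := hw.trans_le (min_le_right _ _)
    have hw0 : w ∈ ball (0 : E n) δ := by
      rw [mem_ball]
      have := dist_triangle w (F y) 0
      rw [dist_zero_right (F y)] at this
      linarith
    obtain ⟨a, ha, rfl⟩ := hon hw0
    have h1 := (hF a ha y hy0).1
    rw [inv_mul_le_iff' hL0] at h1
    have h2 : L * dist (F a) (F y) < L * (ρ / (2 * L * L * L)) := mul_lt_mul_of_pos_left hw2 hL0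
    have h3 : L * (ρ / (2 * L * L * L)) = ρ / (2 * L * L) := by field_simp
    have h4 : ρ / (2 * L * L) ≤ ρ := div_le_self hρ.le (by nlinarith)
    have hay : a ∈ ball y ρ := by rw [mem_ball]; linarith
    refine ⟨ψ a, ?_, by simp only [hφ2 a hay]⟩
    have h5 := (hb a hay y hyy).2
    rw [h0, div_le_iff₀ hr] at h5
    have h6 : L * dist a y < L * (ρ / (2 * L * L)) := mul_lt_mul_of_pos_left (by linarith) hL0
    have h7 : L * (ρ / (2 * L * L)) = ρ / (2 * L) := by field_simp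
    rw [mem_ball]
    calc dist (ψ a) p ≤ L * dist a y * r := h5
      _ < ρ / (2 * L) * r := mul_lt_mul_of_pos_right (by linarith) hr

end Vale.Agent.P242
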