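import Vale.Agent.P242.Defs2

/-! Tangents as pointed Gromov-Hausdorff limits and the literal notion of a regular point. -/

namespace Vale.Agent.P242

open Metric Set Filter Topology

universe u

/-- Pointed `ε`-approximation from the `R`-ball of `(X, d / r, p)` to the `R`-ball of `(Z, z)`. -/
def ApproxTo {X Z : Type*} [MetricSpace X] [MetricSpace Z] (p : X) (z : Z) (r R ε : ℝ) : Prop :=
  ∃ g : X → Z, g p = z ∧
    (∀ x ∈ ball p (R * r), ∀ y ∈ ball p (R * r), |dist (g x) (g y) - dist x y / r| ≤ ε) ∧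
    ∀ w ∈ ball z (R - ε), ∃ x ∈ ball p (R * r), dist (g x) w ≤ ε

/-- `(Z, z)` is the pointed Gromov-Hausdorff limit of `(X, d / r j, p)` for some `r j → 0`. -/
def IsTangent {X Z : Type*} [MetricSpace X] [MetricSpace Z] (p : X) (z : Z) : Prop :=
  ∃ r : ℕ → ℝ, (∀ j, 0 < r j) ∧ Tendsto r atTop (𝓝 0) ∧
    ∀ R : ℝ, 0 < R → ∀ ε : ℝ, 0 < ε → ∀ᶠ j in atTop, ApproxTo p z (r j) R ε

/-- Every complete tangent at `p` is pointed isometric to Euclidean space. -/
def NRegular (n : ℕ) {X : Type u} [MetricSpace X] (p : X) : Prop :=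
  ∀ (Z : Type u) [MetricSpace Z] [CompleteSpace Z] (z : Z), IsTangent p z →
    ∃ e : Z ≃ᵢ E n, e z = 0

/-- The rescaled balls about `p` are uniformly totally bounded at small scales. -/
def UnifTB {X : Type*} [MetricSpace X] (p : X) : Prop :=
  ∀ R : ℝ, 0 < R → ∀ ε : ℝ, 0 < ε → ∃ N : ℕ, ∀ᶠ r in 𝓝[>] (0 : ℝ), ∃ T : Fin N → X,
    (∀ i, T i ∈ ball p (R * r)) ∧ ∀ x ∈ ball p (R * r), ∃ i, dist x (T i) < ε * r

end Vale.Agent.P242
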