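import Vale.Agent.P242.Koe
import Vale.Agent.P242.TDefs

namespace Vale.Agent.P242

open Metric Set Filter Topology

universe u

theorem ApproxTo.mono {X Z : Type*} [MetricSpace X] [MetricSpace Z] {p : X} {z : Z}
    {r R ε R' ε' : ℝ} (hr : 0 < r) (hR : 0 < R) (h : ApproxTo p z r R' ε') (h1 : R ≤ R')
    (h0 : 0 ≤ ε') (h2 : 2 * ε' ≤ ε) : ApproxTo p z r R ε := by
  obtain ⟨g, g0, gd, go⟩ := h
  have hs : ball p (R * r) ⊆ ball p (R' * r) := ball_subset_ball (by gcongr)
  refine ⟨g, g0, fun x hx y hy => (gd x (hs hx) y (hs hy)).trans (by linarith), fun w hw => ?_⟩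
  obtain ⟨x, hx, hd⟩ := go w (ball_subset_ball (by linarith) hw)
  refine ⟨x, ?_, hd.trans (by linarith)⟩
  have h3 := (abs_le.mp (gd x hx p (hs (mem_ball_self (by positivity))))).1
  rw [g0] at h3
  rw [mem_ball, ← div_lt_iff₀ hr]
  have h4 : dist w z < R - ε := hw
  linarith [dist_triangle (g x) w z]

/-- Sequences at bounded rescaled distance from the base point. -/
def Seq {X : Type u} [MetricSpace X] (p : X) (r : ℕ → ℝ) : Type u :=
  {x : ℕ → X // ∃ C : ℝ, ∀ j, dist (x j) p / r j ≤ C}

theorem seq_lim {X : Type u} [MetricSpace X] {p : X} {r : ℕ → ℝ} (hr : ∀ j, 0 < r j)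
    (a b : Seq p r) : ∃ d : ℝ,
      Tendsto (fun j => dist (a.1 j) (b.1 j) / r j) (hyperfilter ℕ : Filter ℕ) (𝓝 d) := by
  obtain ⟨C, hC⟩ := a.2
  obtain ⟨D, hD⟩ := b.2
  refine ultra_lim (hyperfilter ℕ) _ 0 (C + D) (Eventually.of_forall fun j => ?_)
  rw [mem_closedBall_zero_iff, Real.norm_of_nonneg (by have := hr j; positivity)]
  refine le_trans ?_ (add_le_add (hC j) (hD j))
  rw [← add_div]
  exact div_le_div_of_nonneg_right (dist_triangle_right _ _ _) (hr j).le

theorem regular_of_nregular {n : ℕ} {X : Type u} [MetricSpace X] {p : X} (hb : UnifTB p)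
    (h : NRegular n p) : Regular n p := by
  classical
  intro R0 hR0 ε0 hε0
  by_contra hcon
  obtain ⟨r, hrt, hrn⟩ := exists_seq_forall_of_frequently
    ((not_eventually.mp hcon).and_eventually self_mem_nhdsWithin)
  have hr : ∀ j, 0 < r j := fun j => (hrn j).2
  have hU : (hyperfilter ℕ : Filter ℕ) ≤ atTop := by
    rw [← Nat.cofinite_eq_atTop]; exact hyperfilter_le_cofinite
  choose d hd using seq_lim (p := p) hr
  letI : PseudoMetricSpace (Seq p r) :=
    { dist := d
      dist_self := fun a => tendsto_nhds_unique (hd a a) (by simp)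
      dist_comm := fun a b => tendsto_nhds_unique (hd a b) (by simpa [dist_comm] using hd b a)
      dist_triangle := fun a b c => le_of_tendsto_of_tendsto' (hd a c) ((hd a b).add (hd b c))
        fun j => by
          rw [← add_div]
          exact div_le_div_of_nonneg_right (dist_triangle _ _ _) (hr j).le }
  have hdd : ∀ a b : Seq p r, dist (a : UniformSpace.Completion (Seq p r)) b = d a b :=
    fun a b => UniformSpace.Completion.dist_eq a b
  set o : Seq p r := ⟨fun _ => p, 0, fun j => by simp⟩ with ho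
  have hap : ∀ R : ℝ, 0 < R → ∀ ε : ℝ, 0 < ε → ∀ᶠ j in (hyperfilter ℕ : Filter ℕ),
      ApproxTo p (o : UniformSpace.Completion (Seq p r)) (r j) R ε := by
    intro R hR ε hε
    obtain ⟨N, hN⟩ := hb R hR (ε / 10) (by positivity)
    have hN' := (hrt.mono_left hU).eventually hN
    have hT : ∀ j, ∃ T : Fin N → X, (∀ i, T i ∈ ball p (R * r j)) ∧
        ((∃ T : Fin N → X, (∀ i, T i ∈ ball p (R * r j)) ∧
          ∀ x ∈ ball p (R * r j), ∃ i, dist x (T i) < ε / 10 * r j) →
        ∀ x ∈ ball p (R * r j), ∃ i, dist x (T i) < ε / 10 * r j) := by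
      intro j
      by_cases hj : ∃ T : Fin N → X, (∀ i, T i ∈ ball p (R * r j)) ∧
          ∀ x ∈ ball p (R * r j), ∃ i, dist x (T i) < ε / 10 * r j
      · obtain ⟨T, h1, h2⟩ := hj
        exact ⟨T, h1, fun _ => h2⟩
      · exact ⟨fun _ => p, fun _ => mem_ball_self (by have := hr j; positivity),
          fun h' => absurd h' hj⟩
    choose T hT1 hT2 using hT
    set a : Option (Fin N) → Seq p r := fun i => i.elim o fun i =>
      ⟨fun j => T j i, R, fun j => by
        rw [div_le_iff₀ (hr j)]; exact (hT1 j i).le⟩ with ha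
    have hnet : ∀ b : Seq p r, d b o < R → ∃ i, d b (a (some i)) ≤ ε / 10 := by
      intro b hbR
      have e1 : ∀ᶠ j in (hyperfilter ℕ : Filter ℕ), ∃ i, dist (b.1 j) (T j i) / r j ≤ ε / 10 := by
        filter_upwards [hN', (hd b o).eventually (gt_mem_nhds hbR)] with j h1 h2
        obtain ⟨i, hi⟩ := hT2 j h1 (b.1 j) (by rw [mem_ball, ← div_lt_iff₀ (hr j)]; exact h2)
        exact ⟨i, by rw [div_le_iff₀ (hr j)]; exact hi.le⟩
      obtain ⟨i, hi⟩ := Ultrafilter.eventually_exists_iff.mp e1
      exact ⟨i, le_of_tendsto (hd b (a (some i))) hi⟩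
    have hcl : ∀ᶠ j in (hyperfilter ℕ : Filter ℕ), ∀ i i',
        |d (a i) (a i') - dist ((a i).1 j) ((a i').1 j) / r j| ≤ ε / 10 := by
      refine eventually_all.mpr fun i => eventually_all.mpr fun i' => ?_
      filter_upwards [Metric.tendsto_nhds.mp (hd (a i) (a i')) (ε / 10) (by positivity)] with j hj
      rw [Real.dist_eq, abs_sub_comm] at hj
      exact hj.le
    filter_upwards [hN', hcl] with j h1 h2
    have hι : ∀ x, ∃ i : Option (Fin N), (x = p → i = none) ∧
        (x ∈ ball p (R * r j) → dist x ((a i).1 j) / r j ≤ ε / 10) := by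
      intro x
      by_cases hx : x = p
      · exact ⟨none, fun _ => rfl, fun _ => by
          have e : dist x ((a none).1 j) = 0 := by rw [hx]; exact dist_self p
          rw [e, zero_div]
          positivity⟩
      · by_cases hx' : x ∈ ball p (R * r j)
        · obtain ⟨i, hi⟩ := hT2 j h1 x hx'
          exact ⟨some i, fun h' => absurd h' hx,
            fun _ => by rw [div_le_iff₀ (hr j)]; exact hi.le⟩
        · exact ⟨none, fun _ => rfl, fun h' => absurd h' hx'⟩
    choose ι hι1 hι2 using hι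
    refine ⟨fun x => (a (ι x) : UniformSpace.Completion (Seq p r)), by simp only [hι1 p rfl]; rfl,
      fun x hx y hy => ?_, fun w hw => ?_⟩
    · rw [hdd]
      obtain ⟨b1, b2⟩ := abs_le.mp (h2 (ι x) (ι y))
      have c1 := div_le_div_of_nonneg_right
        (dist_triangle4 x ((a (ι x)).1 j) ((a (ι y)).1 j) y) (hr j).le
      have c2 := div_le_div_of_nonneg_right
        (dist_triangle4 ((a (ι x)).1 j) x y ((a (ι y)).1 j)) (hr j).le
      rw [add_div, add_div, dist_comm ((a (ι y)).1 j) y] at c1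
      rw [add_div, add_div, dist_comm ((a (ι x)).1 j) x] at c2
      exact abs_le.mpr ⟨by linarith [hι2 x hx, hι2 y hy], by linarith [hι2 x hx, hι2 y hy]⟩
    · obtain ⟨b, hbw⟩ := (UniformSpace.Completion.denseRange_coe (α := Seq p r)).exists_dist_lt w
        (show 0 < ε / 10 by positivity)
      have hw' : dist w (o : UniformSpace.Completion (Seq p r)) < R - ε := hw
      have hbo : d b o < R := by
        rw [← hdd]
        linarith [dist_triangle_left (b : UniformSpace.Completion (Seq p r)) o w]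
      obtain ⟨i, hi⟩ := hnet b hbo
      refine ⟨T j i, hT1 j i, ?_⟩
      have b1 := (abs_le.mp (h2 (ι (T j i)) (some i))).2
      have b2 := hι2 _ (hT1 j i)
      have b3 : ((a (some i)).1 j) = T j i := rfl
      rw [b3, dist_comm _ (T j i), ← hdd] at b1
      rw [← hdd] at hi
      linarith [dist_triangle4 (a (ι (T j i)) : UniformSpace.Completion (Seq p r)) (a (some i)) b w,
        dist_comm (b : UniformSpace.Completion (Seq p r)) (a (some i)), dist_comm w b]
  have hsel : ∀ k : ℕ, ∃ j, r j < 1 / ((k : ℝ) + 1) ∧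
      ApproxTo p (o : UniformSpace.Completion (Seq p r)) (r j) ((k : ℝ) + 1) (1 / ((k : ℝ) + 1)) :=
    fun k => ((((hrt.mono_right nhdsWithin_le_nhds).mono_left hU).eventually
      (gt_mem_nhds (by positivity))).and (hap _ (by positivity) _ (by positivity))).exists
  choose J hJ1 hJ2 using hsel
  have hconv : ∀ R : ℝ, 0 < R → ∀ ε : ℝ, 0 < ε → ∀ᶠ k in atTop,
      ApproxTo p (o : UniformSpace.Completion (Seq p r)) (r (J k)) R ε := by
    intro R hR ε hε
    filter_upwards [tendsto_natCast_atTop_atTop.eventually (eventually_ge_atTop R),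
      tendsto_one_div_add_atTop_nhds_zero_nat.eventually (gt_mem_nhds (half_pos hε))] with k h1 h2
    exact (hJ2 k).mono (hr _) hR (by linarith) (by positivity) (by linarith)
  obtain ⟨e, he⟩ := h _ (o : UniformSpace.Completion (Seq p r)) ⟨fun k => r (J k), fun k => hr _,
    squeeze_zero (fun k => (hr _).le) (fun k => (hJ1 k).le)
      tendsto_one_div_add_atTop_nhds_zero_nat, hconv⟩
  obtain ⟨k, g, g0, gd, go⟩ := (hconv R0 hR0 ε0 hε0).exists
  refine (hrn (J k)).1 ⟨fun x => e (g x), by simp only [g0, he], fun x hx y hy => ?_, fun z hz => ?_⟩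
  · rw [e.dist_eq]
    exact gd x hx y hy
  · obtain ⟨x, hx, hd'⟩ := go (e.symm z) (by
      rw [mem_ball, ← e.dist_eq, e.apply_symm_apply, he]; exact hz)
    exact ⟨x, hx, by rw [← e.dist_eq, e.apply_symm_apply] at hd'; exact hd'⟩

end Vale.Agent.P242
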